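import Crest.Agent.SnakyLib.Game

/-!
# Zone calculus for the weak Snaky game (encoding independent)

A certificate node carries a zone `Z`, a set of needed Maker stones `N` and a depth `d`.
`NodeOK Z N d` is its meaning: at every position whose Maker stones contain `N` and whose
stones avoid `Z`, Maker (to move) wins with at most `d` further stones.

* `nodeOK_win`: a WIN node.
* `afterOK_single`, `afterOK_cons`, `nodeOK_of_after`: a MOVE node, children added one by one.
* `NodeOK.weaken`, `NodeOK.map` (symmetries), `mwin_of_nodeOK` (root).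
-/

set_option autoImplicit false

namespace Crest.Agent.SnakyLib

open Crest.CombinatoricsR.PolyominoGame

/-- Meaning of a certificate node with zone `Z`, needs `N` and depth `d`. -/
def NodeOK (Z N : Finset Cell) (d : ℕ) : Prop :=
  ∀ M B : Finset Cell, Disjoint M B → N ⊆ M → Disjoint Z (M ∪ B) → MWin M B d

/-- Meaning of a partially assembled MOVE node: Maker plays `m`; the children collected so far
have union of zones `Z`, intersection of zones `I`, union of needs `N`, maximal depth `d`. Every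
legal Breaker reply outside `I` is answered. -/
def AfterOK (m : Cell) (Z I N : Finset Cell) (d : ℕ) : Prop :=
  ∀ M B : Finset Cell, Disjoint M B → m ∉ M → m ∉ B → N ⊆ insert m M → Disjoint Z (M ∪ B) →
    ∀ c : Cell, c ∉ insert m M → c ∉ B → c ∉ I → MWin (insert m M) (insert c B) d

theorem nodeOK_win {P : Finset Cell} (hP : ContainsCopy (↑P : Set Cell)) : NodeOK ∅ P 0 :=
  fun M B _ hN _ => MWin.won M B 0 (containsCopy_mono (by exact_mod_cast hN) hP)

theorem NodeOK.weaken {Z N Z' N' : Finset Cell} {d d' : ℕ} (h : NodeOK Z N d)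
    (hZ : Z ⊆ Z') (hN : N ⊆ N') (hd : d ≤ d') : NodeOK Z' N' d' :=
  fun M B hMB hNM hZM =>
    (h M B hMB (hN.trans hNM) (Finset.disjoint_of_subset_left hZ hZM)).mono_budget hd

theorem AfterOK.weaken {m : Cell} {Z I N Z' I' N' : Finset Cell} {d d' : ℕ}
    (h : AfterOK m Z I N d) (hZ : Z ⊆ Z') (hI : I ⊆ I') (hN : N ⊆ N') (hd : d ≤ d') :
    AfterOK m Z' I' N' d' :=
  fun M B hMB hmM hmB hNM hZM c hc1 hc2 hcI =>
    (h M B hMB hmM hmB (hN.trans hNM) (Finset.disjoint_of_subset_left hZ hZM) c hc1 hc2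
      (fun hc => hcI (hI hc))).mono_budget hd

theorem position_step {M B Zc : Finset Cell} {m c : Cell} (hMB : Disjoint M B) (hmB : m ∉ B)
    (hc : c ∉ insert m M) (hZ : Disjoint Zc (M ∪ B)) (hm : m ∉ Zc) (hcZ : c ∉ Zc) :
    Disjoint (insert m M) (insert c B) ∧ Disjoint Zc (insert m M ∪ insert c B) := by
  rw [Finset.mem_insert, not_or] at hc
  rw [Finset.disjoint_union_right] at hZ
  refine ⟨?_, ?_⟩
  · rw [Finset.disjoint_insert_left, Finset.disjoint_insert_right, Finset.mem_insert, not_or]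
    exact ⟨⟨fun h => hc.1 h.symm, hmB⟩, hc.2, hMB⟩
  · rw [Finset.disjoint_union_right, Finset.disjoint_insert_right, Finset.disjoint_insert_right]
    exact ⟨⟨hm, hZ.1⟩, hcZ, hZ.2⟩

theorem afterOK_single {m : Cell} {Zc Nc : Finset Cell} {dc : ℕ} (h : NodeOK Zc Nc dc)
    (hm : m ∉ Zc) : AfterOK m Zc Zc Nc dc := by
  intro M B hMB _ hmB hN hZ c hc1 _ hcI
  obtain ⟨h1, h2⟩ := position_step hMB hmB hc1 hZ hm hcI
  exact h _ _ h1 hN h2

theorem afterOK_cons {m : Cell} {Z I N Zc Nc : Finset Cell} {d dc : ℕ}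
    (h : AfterOK m Z I N d) (hc : NodeOK Zc Nc dc) (hm : m ∉ Zc) :
    AfterOK m (Z ∪ Zc) (I ∩ Zc) (N ∪ Nc) (max d dc) := by
  intro M B hMB hmM hmB hN hZ c hc1 hc2 hcI
  rw [Finset.disjoint_union_left] at hZ
  rw [Finset.mem_inter, not_and_or] at hcI
  rcases hcI with hcI | hcI
  · exact (h M B hMB hmM hmB (Finset.union_subset_left hN) hZ.1 c hc1 hc2 hcI).mono_budget
      (le_max_left _ _)
  · obtain ⟨h1, h2⟩ := position_step hMB hmB hc1 hZ.2 hm hcI
    exact (hc _ _ h1 (Finset.union_subset_right hN) h2).mono_budget (le_max_right _ _)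

theorem nodeOK_of_after {m : Cell} {Z N : Finset Cell} {d : ℕ} (h : AfterOK m Z ∅ N d) :
    NodeOK (insert m Z) (N.erase m) (d + 1) := by
  intro M B hMB hN hZ
  rw [Finset.disjoint_insert_left, Finset.mem_union, not_or] at hZ
  refine MWin.move M B d m hZ.1.1 hZ.1.2 fun c hc1 hc2 => ?_
  refine h M B hMB hZ.1.1 hZ.1.2 ?_ hZ.2 c hc1 hc2 (Finset.notMem_empty c)
  intro x hx
  by_cases hxm : x = m
  · exact hxm ▸ Finset.mem_insert_self _ _
  · exact Finset.mem_insert_of_mem (hN (Finset.mem_erase.mpr ⟨hxm, hx⟩))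

/-- The root of a certificate. -/
theorem mwin_of_nodeOK {Z : Finset Cell} {d : ℕ} (h : NodeOK Z ∅ d) (hd : d ≤ 21) :
    MWin ∅ ∅ 21 :=
  (h ∅ ∅ (Finset.disjoint_empty_left _) (Finset.empty_subset _)
    (by simp)).mono_budget hd

/-! ### Symmetries -/

/-- A bijection of the board preserving the existence of allowed copies. -/
def IsSym (e : Cell ≃ Cell) : Prop :=
  ∀ X : Set Cell, ContainsCopy X → ContainsCopy (e '' X)

theorem IsSym.refl : IsSym (Equiv.refl Cell) := fun X h => by simpa using h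

theorem IsSym.trans {e f : Cell ≃ Cell} (he : IsSym e) (hf : IsSym f) : IsSym (e.trans f) := by
  intro X h
  have := hf _ (he X h)
  rwa [Set.image_image] at this

/-- Translations. -/
theorem isSym_addLeft (t : Cell) : IsSym (Equiv.addLeft t) := by
  rintro X ⟨t0, e1, e2, h1, h2, h3⟩
  refine ⟨t + t0, e1, e2, h1, h2, ?_⟩
  rcases h3 with h3 | h3
  · left
    intro p hp
    exact ⟨_, h3 p hp, by simp [Prod.ext_iff, add_assoc]⟩
  · right
    intro p hp
    exact ⟨_, h3 p hp, by simp [Prod.ext_iff, add_assoc]⟩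

/-- Swapping the coordinates. -/
theorem isSym_swap : IsSym (Equiv.prodComm ℤ ℤ) := by
  rintro X ⟨t0, e1, e2, h1, h2, h3⟩
  refine ⟨(t0.2, t0.1), e2, e1, h2, h1, ?_⟩
  rcases h3 with h3 | h3
  · right
    intro p hp
    exact ⟨_, h3 p hp, by simp⟩
  · left
    intro p hp
    exact ⟨_, h3 p hp, by simp⟩

/-- Negating the first coordinate. -/
def flipX : Cell ≃ Cell := (Equiv.neg ℤ).prodCongr (Equiv.refl ℤ)

theorem isSym_flipX : IsSym flipX := by
  rintro X ⟨t0, e1, e2, h1, h2, h3⟩
  have h1' : -e1 = 1 ∨ -e1 = -1 := by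
    rcases h1 with h1 | h1
    · right; rw [h1]
    · left; rw [h1]; norm_num
  rcases h3 with h3 | h3
  · refine ⟨(-t0.1, t0.2), -e1, e2, h1', h2, Or.inl ?_⟩
    intro p hp
    exact ⟨_, h3 p hp, by simp [flipX, Prod.ext_iff]; ring⟩
  · refine ⟨(-t0.1, t0.2), -e1, e2, h1', h2, Or.inr ?_⟩
    intro p hp
    exact ⟨_, h3 p hp, by simp [flipX, Prod.ext_iff]; ring⟩

theorem MWin.map {e : Cell ≃ Cell} (he : IsSym e) {M B : Finset Cell} {k : ℕ}
    (h : MWin M B k) : MWin (M.map e.toEmbedding) (B.map e.toEmbedding) k := by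
  induction h with
  | won M B k hc =>
    refine MWin.won _ _ k ?_
    have := he _ hc
    rwa [Finset.coe_map]
  | move M B k m hm hB _ ih =>
    refine MWin.move _ _ k (e m) ?_ ?_ fun c hc1 hc2 => ?_
    · simpa using hm
    · simpa using hB
    · have h1 : e.symm c ∉ insert m M := by
        intro h
        apply hc1
        rw [Finset.mem_insert] at h ⊢
        rcases h with h | h
        · left; rw [← h]; simp
        · right; rw [Finset.mem_map]; exact ⟨e.symm c, h, by simp⟩
      have h2 : e.symm c ∉ B := by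
        intro h
        apply hc2
        rw [Finset.mem_map]; exact ⟨e.symm c, h, by simp⟩
      have := ih (e.symm c) h1 h2
      simpa [Finset.map_insert] using this

theorem NodeOK.map {e : Cell ≃ Cell} (he : IsSym e) {Z N : Finset Cell} {d : ℕ}
    (h : NodeOK Z N d) : NodeOK (Z.map e.toEmbedding) (N.map e.toEmbedding) d := by
  intro M B hMB hN hZ
  have hM : (M.map e.symm.toEmbedding).map e.toEmbedding = M := by
    ext x; simp
  have hB : (B.map e.symm.toEmbedding).map e.toEmbedding = B := by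
    ext x; simp
  have key := h (M.map e.symm.toEmbedding) (B.map e.symm.toEmbedding) ?_ ?_ ?_
  · have := key.map he
    rwa [hM, hB] at this
  · rw [Finset.disjoint_left] at hMB ⊢
    intro x hx hx'
    rw [Finset.mem_map] at hx hx'
    obtain ⟨y, hy, rfl⟩ := hx
    obtain ⟨z, hz, hzy⟩ := hx'
    have : z = y := e.symm.injective hzy
    exact hMB hy (this ▸ hz)
  · intro x hx
    rw [Finset.mem_map]
    exact ⟨e x, hN (Finset.mem_map_of_mem _ hx), by simp⟩
  · rw [Finset.disjoint_left] at hZ ⊢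
    intro x hx hx'
    apply hZ (Finset.mem_map_of_mem e.toEmbedding hx)
    rw [Finset.mem_union, Finset.mem_map, Finset.mem_map] at hx'
    rw [Finset.mem_union]
    rcases hx' with ⟨y, hy, hyx⟩ | ⟨y, hy, hyx⟩
    · left
      have : e x = y := by rw [← hyx]; simp
      simpa [this] using hy
    · right
      have : e x = y := by rw [← hyx]; simp
      simpa [this] using hy

end Crest.Agent.SnakyLib
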