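import Crest.Prelude.Def_PolyominoGame

/-!
# Semantic layer for S0047 (weak Snaky game)

`MWin M B k`: Maker to move, Maker's stones `M`, Breaker's stones `B`; Maker can complete an
allowed copy of Snaky using at most `k` further stones, whatever Breaker replies.

Main result: `result_of_MWin : MWin ∅ ∅ 21 → (the S0047 statement)`.
-/

set_option autoImplicit false

namespace Crest.Agent.SnakyLib

open Crest.CombinatoricsR.PolyominoGame

/-- Cells of the board. -/
abbrev Cell := ℤ × ℤ

/-- Maker (to move) wins within `k` further stones from the position `(M, B)`. -/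
inductive MWin : Finset Cell → Finset Cell → ℕ → Prop
  | won (M B : Finset Cell) (k : ℕ) : ContainsCopy (↑M : Set Cell) → MWin M B k
  | move (M B : Finset Cell) (k : ℕ) (m : Cell) : m ∉ M → m ∉ B →
      (∀ c : Cell, c ∉ insert m M → c ∉ B → MWin (insert m M) (insert c B) k) →
      MWin M B (k + 1)

theorem containsCopy_mono {X Y : Set Cell} (h : X ⊆ Y) (hX : ContainsCopy X) :
    ContainsCopy Y := by
  obtain ⟨t, e1, e2, h1, h2, h3⟩ := hX
  refine ⟨t, e1, e2, h1, h2, ?_⟩
  rcases h3 with h3 | h3
  · exact Or.inl fun p hp => h (h3 p hp)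
  · exact Or.inr fun p hp => h (h3 p hp)

theorem MWin.mono_succ {M B : Finset Cell} {k : ℕ} (h : MWin M B k) : MWin M B (k + 1) := by
  induction h with
  | won M B k hc => exact MWin.won M B (k + 1) hc
  | move M B k m hm hB _ ih => exact MWin.move M B (k + 1) m hm hB ih

theorem MWin.mono_budget {M B : Finset Cell} {k k' : ℕ} (h : MWin M B k) (hk : k ≤ k') :
    MWin M B k' := by
  induction hk with
  | refl => exact h
  | step _ ih => exact ih.mono_succ

theorem MWin.containsCopy_of_zero {M B : Finset Cell} (h : MWin M B 0) :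
    ContainsCopy (↑M : Set Cell) := by
  cases h with
  | won _ _ _ hc => exact hc

theorem exists_fresh (S : Finset Cell) : ∃ c : Cell, c ∉ S :=
  Infinite.exists_notMem_finset S

/-- The property a good Maker move has. -/
def GoodMove (M B : Finset Cell) (k : ℕ) (m : Cell) : Prop :=
  m ∉ M ∧ m ∉ B ∧ ∀ c : Cell, c ∉ insert m M → c ∉ B → MWin (insert m M) (insert c B) (k - 1)

open Classical in
/-- Maker's move at the position `(M, B)` with budget `k`: a good move if there is one, otherwise
any fresh cell. -/
noncomputable def step (M B : Finset Cell) (k : ℕ) : Cell :=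
  if h : ∃ m : Cell, GoodMove M B k m then Classical.choose h
  else Classical.choose (exists_fresh (M ∪ B))

theorem step_fresh (M B : Finset Cell) (k : ℕ) : step M B k ∉ M ∧ step M B k ∉ B := by
  unfold step
  split_ifs with h
  · exact ⟨(Classical.choose_spec h).1, (Classical.choose_spec h).2.1⟩
  · have := Classical.choose_spec (exists_fresh (M ∪ B))
    rw [Finset.mem_union, not_or] at this
    exact this

theorem step_good {M B : Finset Cell} {k : ℕ} (h : MWin M B k)
    (hc : ¬ ContainsCopy (↑M : Set Cell)) : 1 ≤ k ∧ GoodMove M B k (step M B k) := by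
  have hex : 1 ≤ k ∧ ∃ m : Cell, GoodMove M B k m := by
    cases h with
    | won _ _ _ h' => exact absurd h' hc
    | move _ _ k m hm hB hall => exact ⟨Nat.succ_le_succ (Nat.zero_le _), m, hm, hB, by simpa using hall⟩
  refine ⟨hex.1, ?_⟩
  unfold step
  rw [dif_pos hex.2]
  exact Classical.choose_spec hex.2

/-- Maker's next cell, from the position `(M, B)` with budget `k`, after the further Breaker
replies in the list (Maker moving by `step` in between). -/
noncomputable def playAux : Finset Cell → Finset Cell → ℕ → List Cell → Cell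
  | M, B, k, [] => step M B k
  | M, B, k, c :: l => playAux (insert (step M B k) M) (insert c B) (k - 1) l

/-- Maker's policy. -/
noncomputable def policy : List Cell → Cell := playAux ∅ ∅ 21

/-- The position after `j` full rounds against the reply sequence `b`. -/
noncomputable def st (b : ℕ → Cell) : ℕ → Finset Cell × Finset Cell
  | 0 => (∅, ∅)
  | j + 1 => (insert (step (st b j).1 (st b j).2 (21 - j)) (st b j).1, insert (b j) (st b j).2)

theorem playAux_range' (b : ℕ → Cell) (n : ℕ) : ∀ i : ℕ,
    playAux (st b i).1 (st b i).2 (21 - i) ((List.range' i n).map b) =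
      step (st b (i + n)).1 (st b (i + n)).2 (21 - (i + n)) := by
  induction n with
  | zero => intro i; simp [playAux]
  | succ n ih =>
    intro i
    have h1 : List.range' i (n + 1) = i :: List.range' (i + 1) n := by
      simp [List.range'_succ]
    rw [h1, List.map_cons, playAux]
    have h2 : (21 - i - 1) = 21 - (i + 1) := by omega
    have h3 := ih (i + 1)
    have h4 : i + 1 + n = i + (n + 1) := by omega
    rw [h4] at h3
    rw [h2]
    exact h3

theorem makerClaim_policy (b : ℕ → Cell) (j : ℕ) :
    makerClaim policy b j = step (st b j).1 (st b j).2 (21 - j) := by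
  have h := playAux_range' b j 0
  simp only [Nat.zero_add, Nat.sub_zero] at h
  unfold makerClaim policy
  rw [List.range_eq_range']
  exact h

theorem mem_st_fst (b : ℕ → Cell) (j : ℕ) (c : Cell) :
    c ∈ (st b j).1 ↔ ∃ i : ℕ, i < j ∧ c = makerClaim policy b i := by
  induction j with
  | zero => simp [st]
  | succ j ih =>
    rw [st, Finset.mem_insert, ih, ← makerClaim_policy]
    constructor
    · rintro (h | ⟨i, hi, h⟩)
      · exact ⟨j, Nat.lt_succ_self j, h⟩
      · exact ⟨i, Nat.lt_succ_of_lt hi, h⟩
    · rintro ⟨i, hi, h⟩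
      rcases Nat.lt_succ_iff_lt_or_eq.mp hi with hi | hi
      · exact Or.inr ⟨i, hi, h⟩
      · exact Or.inl (hi ▸ h)

theorem mem_st_snd (b : ℕ → Cell) (j : ℕ) (c : Cell) :
    c ∈ (st b j).2 ↔ ∃ i : ℕ, i < j ∧ c = b i := by
  induction j with
  | zero => simp [st]
  | succ j ih =>
    rw [st, Finset.mem_insert, ih]
    constructor
    · rintro (h | ⟨i, hi, h⟩)
      · exact ⟨j, Nat.lt_succ_self j, h⟩
      · exact ⟨i, Nat.lt_succ_of_lt hi, h⟩
    · rintro ⟨i, hi, h⟩
      rcases Nat.lt_succ_iff_lt_or_eq.mp hi with hi | hi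
      · exact Or.inr ⟨i, hi, h⟩
      · exact Or.inl (hi ▸ h)

theorem st_fst_mono (b : ℕ → Cell) {i j : ℕ} (h : i ≤ j) : (st b i).1 ⊆ (st b j).1 := by
  intro c hc
  rw [mem_st_fst] at hc ⊢
  obtain ⟨l, hl, hc⟩ := hc
  exact ⟨l, lt_of_lt_of_le hl h, hc⟩

/-- The invariant along a legal play: either Maker already has a copy or the position is won
with the remaining budget. -/
theorem invariant (h : MWin ∅ ∅ 21) (b : ℕ → Cell)
    (hb : ∀ k : ℕ, k < 20 →
      (∀ j : ℕ, j ≤ k → b k ≠ makerClaim policy b j) ∧ (∀ j : ℕ, j < k → b k ≠ b j)) :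
    ∀ j : ℕ, j ≤ 20 →
      ContainsCopy (↑(st b j).1 : Set Cell) ∨ MWin (st b j).1 (st b j).2 (21 - j) := by
  intro j
  induction j with
  | zero => intro _; exact Or.inr h
  | succ j ih =>
    intro hj
    have hj' : j < 20 := hj
    rcases ih (le_of_lt hj') with hc | hw
    · left
      exact containsCopy_mono (by exact_mod_cast st_fst_mono b (Nat.le_succ j)) hc
    · by_cases hc : ContainsCopy (↑(st b j).1 : Set Cell)
      · left
        exact containsCopy_mono (by exact_mod_cast st_fst_mono b (Nat.le_succ j)) hc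
      · right
        obtain ⟨_, _, _, hall⟩ := step_good hw hc
        have h2 : (21 - j - 1) = 21 - (j + 1) := by omega
        rw [h2] at hall
        rw [st]
        apply hall
        · rw [Finset.mem_insert, not_or, ← makerClaim_policy]
          refine ⟨(hb j hj').1 j le_rfl, ?_⟩
          rw [mem_st_fst]
          rintro ⟨i, hi, hbi⟩
          exact (hb j hj').1 i (le_of_lt hi) hbi
        · rw [mem_st_snd]
          rintro ⟨i, hi, hbi⟩
          exact (hb j hj').2 i hi hbi

/-- From a win of the abstract game within 21 stones to the exact statement S0047. -/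
theorem result_of_MWin (h : MWin ∅ ∅ 21) :
    ∃ σ : List (ℤ × ℤ) → ℤ × ℤ, ∀ b : ℕ → ℤ × ℤ,
      (∀ k : ℕ, k < 20 →
        (∀ j : ℕ, j ≤ k → b k ≠ Crest.CombinatoricsR.PolyominoGame.makerClaim σ b j) ∧
        (∀ j : ℕ, j < k → b k ≠ b j)) →
      (∀ k : ℕ, k ≤ 20 →
        (∀ j : ℕ, j < k → Crest.CombinatoricsR.PolyominoGame.makerClaim σ b k ≠
          Crest.CombinatoricsR.PolyominoGame.makerClaim σ b j) ∧
        (∀ j : ℕ, j < k → Crest.CombinatoricsR.PolyominoGame.makerClaim σ b k ≠ b j)) ∧
      Crest.CombinatoricsR.PolyominoGame.ContainsCopy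
        {c | ∃ j : ℕ, j ≤ 20 ∧ c = Crest.CombinatoricsR.PolyominoGame.makerClaim σ b j} := by
  refine ⟨policy, fun b hb => ⟨?_, ?_⟩⟩
  · intro k _
    have hf := step_fresh (st b k).1 (st b k).2 (21 - k)
    rw [← makerClaim_policy] at hf
    constructor
    · intro j hj heq
      exact hf.1 ((mem_st_fst b k _).mpr ⟨j, hj, heq⟩)
    · intro j hj heq
      exact hf.2 ((mem_st_snd b k _).mpr ⟨j, hj, heq⟩)
  · have hset : {c | ∃ j : ℕ, j ≤ 20 ∧ c = makerClaim policy b j} = (↑(st b 21).1 : Set Cell) := by
      ext c
      rw [Set.mem_ofPred_eq, Finset.mem_coe, mem_st_fst]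
      constructor
      · rintro ⟨j, hj, hc⟩; exact ⟨j, Nat.lt_succ_of_le hj, hc⟩
      · rintro ⟨j, hj, hc⟩; exact ⟨j, Nat.le_of_lt_succ hj, hc⟩
    rw [hset]
    rcases invariant h b hb 20 le_rfl with hc | hw
    · exact containsCopy_mono (by exact_mod_cast st_fst_mono b (Nat.le_succ 20)) hc
    · by_cases hc : ContainsCopy (↑(st b 20).1 : Set Cell)
      · exact containsCopy_mono (by exact_mod_cast st_fst_mono b (Nat.le_succ 20)) hc
      · obtain ⟨_, _, _, hall⟩ := step_good hw hc
        obtain ⟨c, hcf⟩ := exists_fresh (insert (step (st b 20).1 (st b 20).2 (21 - 20)) (st b 20).1 ∪ (st b 20).2)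
        rw [Finset.mem_union, not_or] at hcf
        have := (hall c hcf.1 hcf.2).containsCopy_of_zero
        rw [st]
        exact this

/-- The six cells of Snaky in a fixed order. -/
def snakyList : List Cell := [(0, 0), (1, 0), (2, 0), (3, 0), (3, 1), (4, 1)]

/-- The allowed copy with anchor `t`, signs `e1 e2` and swap flag `s`, as a list of six cells
(in the order of `snakyList`). -/
def placement (t : Cell) (e1 e2 : ℤ) (s : Bool) : List Cell :=
  snakyList.map fun p =>
    if s then (t.1 + e1 * p.2, t.2 + e2 * p.1) else (t.1 + e1 * p.1, t.2 + e2 * p.2)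

theorem mem_snakyList {p : Cell} (hp : p ∈ snaky) : p ∈ snakyList := by
  simp only [snaky, Finset.mem_insert, Finset.mem_singleton] at hp
  simp only [snakyList, List.mem_cons, List.not_mem_nil, or_false]
  exact hp

/-- A set containing all cells of a placement contains an allowed copy. -/
theorem containsCopy_of_placement {X : Set Cell} (t : Cell) (e1 e2 : ℤ) (s : Bool)
    (he1 : e1 = 1 ∨ e1 = -1) (he2 : e2 = 1 ∨ e2 = -1)
    (h : ∀ c ∈ placement t e1 e2 s, c ∈ X) : ContainsCopy X := by
  refine ⟨t, e1, e2, he1, he2, ?_⟩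
  cases s with
  | false =>
    left
    intro p hp
    apply h
    simp only [placement, List.mem_map]
    exact ⟨p, mem_snakyList hp, by simp⟩
  | true =>
    right
    intro p hp
    apply h
    simp only [placement, List.mem_map]
    exact ⟨p, mem_snakyList hp, by simp⟩

end Crest.Agent.SnakyLib
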