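import Crest.Agent.SnakyLib.Calculus

/-!
# Bit-mask layer of the zone calculus

Cells of the window `{(x, y) : 0 ≤ x < 16, 0 ≤ y}` are indexed by `i = 16 * y + x`; a set of
cells is a natural number (bit `i` set iff the cell with index `i` belongs to the set).
`NodeM z n d` / `AfterM i z I n d` are `NodeOK` / `AfterOK` for decoded masks. All side conditions
of the rules are closed equations between natural-number (and a few integer) expressions, to be
discharged by `rfl` / `decide`.
-/

set_option autoImplicit false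

namespace Crest.Agent.SnakyLib

open Crest.CombinatoricsR.PolyominoGame

/-- The cell with index `i`. -/
def cellOf (i : ℕ) : Cell := (((i % 16 : ℕ) : ℤ), ((i / 16 : ℕ) : ℤ))

theorem cellOf_injective : Function.Injective cellOf := by
  intro i j h
  simp only [cellOf, Prod.mk.injEq, Nat.cast_inj] at h
  have h1 := Nat.div_add_mod i 16
  have h2 := Nat.div_add_mod j 16
  omega

/-- The set of cells coded by a mask. -/
def cells (z : ℕ) : Finset Cell :=
  ((Finset.range (z + 1)).filter fun i => z.testBit i = true).image cellOf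

theorem mem_cells {z : ℕ} {c : Cell} : c ∈ cells z ↔ ∃ i : ℕ, z.testBit i = true ∧ cellOf i = c := by
  unfold cells
  rw [Finset.mem_image]
  constructor
  · rintro ⟨i, hi, rfl⟩
    exact ⟨i, (Finset.mem_filter.mp hi).2, rfl⟩
  · rintro ⟨i, hi, rfl⟩
    refine ⟨i, Finset.mem_filter.mpr ⟨Finset.mem_range.mpr ?_, hi⟩, rfl⟩
    have h1 : 2 ^ i ≤ z := Nat.ge_two_pow_of_testBit hi
    have h2 : i < 2 ^ i := Nat.lt_two_pow_self
    omega

theorem cellOf_mem_cells {z i : ℕ} : cellOf i ∈ cells z ↔ z.testBit i = true := by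
  rw [mem_cells]
  constructor
  · rintro ⟨j, hj, h⟩
    rwa [← cellOf_injective h]
  · intro h
    exact ⟨i, h, rfl⟩

theorem cellOf_notMem_cells {z i : ℕ} (h : z.testBit i = false) : cellOf i ∉ cells z := by
  rw [cellOf_mem_cells, h]
  simp

theorem cells_zero : cells 0 = ∅ := by
  ext c
  rw [mem_cells]
  simp

theorem cells_lor (a b : ℕ) : cells (a ||| b) = cells a ∪ cells b := by
  ext c
  rw [Finset.mem_union, mem_cells, mem_cells, mem_cells]
  constructor
  · rintro ⟨i, hi, rfl⟩
    rw [Nat.testBit_lor, Bool.or_eq_true] at hi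
    rcases hi with hi | hi
    · exact Or.inl ⟨i, hi, rfl⟩
    · exact Or.inr ⟨i, hi, rfl⟩
  · rintro (⟨i, hi, rfl⟩ | ⟨i, hi, rfl⟩)
    · exact ⟨i, by rw [Nat.testBit_lor, hi]; rfl, rfl⟩
    · exact ⟨i, by rw [Nat.testBit_lor, hi]; simp, rfl⟩

theorem cells_land (a b : ℕ) : cells (a &&& b) = cells a ∩ cells b := by
  ext c
  rw [Finset.mem_inter, mem_cells, mem_cells, mem_cells]
  constructor
  · rintro ⟨i, hi, rfl⟩
    rw [Nat.testBit_and, Bool.and_eq_true] at hi
    exact ⟨⟨i, hi.1, rfl⟩, ⟨i, hi.2, rfl⟩⟩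
  · rintro ⟨⟨i, hi, rfl⟩, ⟨j, hj, hji⟩⟩
    have : j = i := cellOf_injective hji
    subst this
    exact ⟨j, by rw [Nat.testBit_and, hi, hj]; rfl, rfl⟩

theorem cells_bit (i : ℕ) : cells (1 <<< i) = {cellOf i} := by
  ext c
  rw [Finset.mem_singleton, mem_cells]
  constructor
  · rintro ⟨j, hj, rfl⟩
    rw [Nat.one_shiftLeft, Nat.testBit_two_pow] at hj
    rw [of_decide_eq_true hj]
  · rintro rfl
    exact ⟨i, by rw [Nat.one_shiftLeft, Nat.testBit_two_pow_self], rfl⟩

/-- Mask version of `NodeOK`. -/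
def NodeM (z n d : ℕ) : Prop := NodeOK (cells z) (cells n) d

/-- Mask version of `AfterOK`; the move is the cell with index `i`. -/
def AfterM (i z I n d : ℕ) : Prop := AfterOK (cellOf i) (cells z) (cells I) (cells n) d

/-- Boolean test for a WIN node: the allowed copy `placement t e1 e2 s` lies in the window and
inside the mask `n`. -/
def winCheck (n : ℕ) (t : Cell) (e1 e2 : ℤ) (s : Bool) : Bool :=
  (decide (e1 = 1) || decide (e1 = -1)) && (decide (e2 = 1) || decide (e2 = -1)) &&
    (placement t e1 e2 s).all fun c =>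
      decide (0 ≤ c.1) && decide (c.1 < 16) && decide (0 ≤ c.2) &&
        n.testBit (16 * c.2.toNat + c.1.toNat)

theorem nodeM_win (n : ℕ) (t : Cell) (e1 e2 : ℤ) (s : Bool)
    (h : winCheck n t e1 e2 s = true) : NodeM 0 n 0 := by
  unfold winCheck at h
  simp only [Bool.and_eq_true, Bool.or_eq_true, decide_eq_true_eq, List.all_eq_true] at h
  obtain ⟨⟨he1, he2⟩, hall⟩ := h
  unfold NodeM
  rw [cells_zero]
  apply nodeOK_win
  refine containsCopy_of_placement t e1 e2 s he1 he2 fun c hc => ?_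
  obtain ⟨⟨⟨h1, h2⟩, h3⟩, h4⟩ := hall c hc
  rw [Finset.mem_coe, mem_cells]
  refine ⟨16 * c.2.toNat + c.1.toNat, h4, ?_⟩
  have hx : (c.1.toNat : ℤ) = c.1 := Int.toNat_of_nonneg h1
  have hy : (c.2.toNat : ℤ) = c.2 := Int.toNat_of_nonneg h3
  have hlt : c.1.toNat < 16 := by omega
  unfold cellOf
  have e1' : (16 * c.2.toNat + c.1.toNat) % 16 = c.1.toNat := by omega
  have e2' : (16 * c.2.toNat + c.1.toNat) / 16 = c.2.toNat := by omega
  rw [e1', e2', hx, hy]

theorem afterM_single (i : ℕ) {zc nc dc : ℕ} (h : NodeM zc nc dc)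
    (hm : zc.testBit i = false) : AfterM i zc zc nc dc :=
  afterOK_single h (cellOf_notMem_cells hm)

theorem afterM_cons {i z I n d zc nc dc : ℕ} (h : AfterM i z I n d) (hc : NodeM zc nc dc)
    (hm : zc.testBit i = false) : AfterM i (z ||| zc) (I &&& zc) (n ||| nc) (max d dc) := by
  unfold AfterM
  rw [cells_lor, cells_land, cells_lor]
  exact afterOK_cons h hc (cellOf_notMem_cells hm)

theorem nodeM_of_after {i z I n d Z N D : ℕ} (h : AfterM i z I n d) (hI : I = 0)
    (hZ : z ||| 1 <<< i = Z) (hN : N ||| 1 <<< i = n ||| 1 <<< i) (hD : d + 1 = D) :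
    NodeM Z N D := by
  subst hI hZ hD
  unfold AfterM at h
  rw [cells_zero] at h
  have key := nodeOK_of_after h
  unfold NodeM
  refine key.weaken ?_ ?_ le_rfl
  · rw [cells_lor, cells_bit]
    intro x hx
    rw [Finset.mem_insert] at hx
    rw [Finset.mem_union, Finset.mem_singleton]
    tauto
  · have hN' := congrArg cells hN
    rw [cells_lor, cells_lor, cells_bit] at hN'
    intro x hx
    rw [Finset.mem_erase] at hx
    have : x ∈ cells n ∪ {cellOf i} := Finset.mem_union_left _ hx.2
    rw [← hN', Finset.mem_union, Finset.mem_singleton] at this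
    tauto

/-- Weakening of a node (larger zone, larger needs, larger depth). -/
theorem NodeM.weaken {z n d Z N D : ℕ} (h : NodeM z n d) (hZ : z ||| Z = Z) (hN : n ||| N = N)
    (hD : d ≤ D) : NodeM Z N D := by
  unfold NodeM at h ⊢
  refine NodeOK.weaken h ?_ ?_ hD
  · rw [← hZ, cells_lor]; exact Finset.subset_union_left
  · rw [← hN, cells_lor]; exact Finset.subset_union_left

/-- The root: a node without needs and of depth at most 21 wins the game. -/
theorem mwin_of_nodeM {Z D : ℕ} (h : NodeM Z 0 D) (hD : D ≤ 21) : MWin ∅ ∅ 21 := by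
  unfold NodeM at h
  rw [cells_zero] at h
  exact mwin_of_nodeOK h hD

/-! ### MOVE nodes with a single Boolean side condition -/

/-- `AfterM` under the assumption that the move avoids all child zones collected so far. -/
def AfterM' (i z I n d : ℕ) : Prop := z.testBit i = false → AfterM i z I n d

theorem afterM'_single (i : ℕ) {zc nc dc : ℕ} (h : NodeM zc nc dc) : AfterM' i zc zc nc dc :=
  fun hm => afterM_single i h hm

theorem afterM'_cons {i z I n d zc nc dc : ℕ} (h : AfterM' i z I n d) (hc : NodeM zc nc dc) :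
    AfterM' i (z ||| zc) (I &&& zc) (n ||| nc) (max d dc) := by
  intro hm
  rw [Nat.testBit_lor, Bool.or_eq_false_iff] at hm
  exact afterM_cons (h hm.1) hc hm.2

/-- The Boolean side condition of a MOVE node. -/
def moveCheck (i z I n d Z N D : ℕ) : Bool :=
  !z.testBit i && (I == 0) && (z ||| 1 <<< i == Z) && (N ||| 1 <<< i == n ||| 1 <<< i) &&
    (d + 1 == D)

theorem nodeM_move {i z I n d Z N D : ℕ} (h : AfterM' i z I n d)
    (hchk : moveCheck i z I n d Z N D = true) : NodeM Z N D := by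
  unfold moveCheck at hchk
  simp only [Bool.and_eq_true, Bool.not_eq_true', beq_iff_eq] at hchk
  obtain ⟨⟨⟨⟨h1, h2⟩, h3⟩, h4⟩, h5⟩ := hchk
  exact nodeM_of_after (h h1) h2 h3 h4 h5

/-! ### Symmetric images of nodes -/

/-- A symmetry of the board: signs `e1 e2`, swap flag `s`, then translation by `t`. -/
def symCell (t : Cell) (e1 e2 : ℤ) (s : Bool) (c : Cell) : Cell :=
  if s then (t.1 + e1 * c.2, t.2 + e2 * c.1) else (t.1 + e1 * c.1, t.2 + e2 * c.2)

/-- The inverse map of `symCell`. -/
def symCellInv (t : Cell) (e1 e2 : ℤ) (s : Bool) (c : Cell) : Cell :=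
  if s then (e2 * (c.2 - t.2), e1 * (c.1 - t.1)) else (e1 * (c.1 - t.1), e2 * (c.2 - t.2))

/-- `symCell` as an equivalence. -/
def symEquiv (t : Cell) (e1 e2 : ℤ) (s : Bool) (he1 : e1 = 1 ∨ e1 = -1)
    (he2 : e2 = 1 ∨ e2 = -1) : Cell ≃ Cell where
  toFun := symCell t e1 e2 s
  invFun := symCellInv t e1 e2 s
  left_inv := by
    intro c
    cases s <;> rcases he1 with rfl | rfl <;> rcases he2 with rfl | rfl <;>
      simp [symCell, symCellInv]
  right_inv := by
    intro c
    cases s <;> rcases he1 with rfl | rfl <;> rcases he2 with rfl | rfl <;>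
      simp [symCell, symCellInv]

theorem sign_mul {a b : ℤ} (ha : a = 1 ∨ a = -1) (hb : b = 1 ∨ b = -1) :
    a * b = 1 ∨ a * b = -1 := by
  rcases ha with rfl | rfl <;> rcases hb with rfl | rfl <;> simp

theorem isSym_symEquiv (t : Cell) (e1 e2 : ℤ) (s : Bool) (he1 : e1 = 1 ∨ e1 = -1)
    (he2 : e2 = 1 ∨ e2 = -1) : IsSym (symEquiv t e1 e2 s he1 he2) := by
  rintro X ⟨t0, a1, a2, ha1, ha2, h3⟩
  cases s with
  | false =>
    refine ⟨(t.1 + e1 * t0.1, t.2 + e2 * t0.2), e1 * a1, e2 * a2, sign_mul he1 ha1,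
      sign_mul he2 ha2, ?_⟩
    rcases h3 with h3 | h3
    · left
      intro p hp
      refine ⟨_, h3 p hp, ?_⟩
      simp only [symEquiv, Equiv.coe_fn_mk, symCell, Bool.false_eq_true, if_false, Prod.mk.injEq]
      constructor <;> ring
    · right
      intro p hp
      refine ⟨_, h3 p hp, ?_⟩
      simp only [symEquiv, Equiv.coe_fn_mk, symCell, Bool.false_eq_true, if_false, Prod.mk.injEq]
      constructor <;> ring
  | true =>
    refine ⟨(t.1 + e1 * t0.2, t.2 + e2 * t0.1), e1 * a2, e2 * a1, sign_mul he1 ha2,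
      sign_mul he2 ha1, ?_⟩
    rcases h3 with h3 | h3
    · right
      intro p hp
      refine ⟨_, h3 p hp, ?_⟩
      simp only [symEquiv, Equiv.coe_fn_mk, symCell, if_true, Prod.mk.injEq]
      constructor <;> ring
    · left
      intro p hp
      refine ⟨_, h3 p hp, ?_⟩
      simp only [symEquiv, Equiv.coe_fn_mk, symCell, if_true, Prod.mk.injEq]
      constructor <;> ring

/-- The index of the image of the cell with index `j`, if the image lies in the window. -/
def symIdx (t : Cell) (e1 e2 : ℤ) (s : Bool) (j : ℕ) : Option ℕ :=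
  if 0 ≤ (symCell t e1 e2 s (cellOf j)).1 ∧ (symCell t e1 e2 s (cellOf j)).1 < 16 ∧
      0 ≤ (symCell t e1 e2 s (cellOf j)).2 then
    some (16 * (symCell t e1 e2 s (cellOf j)).2.toNat + (symCell t e1 e2 s (cellOf j)).1.toNat)
  else none

theorem cellOf_of_symIdx {t : Cell} {e1 e2 : ℤ} {s : Bool} {j j' : ℕ}
    (h : symIdx t e1 e2 s j = some j') : cellOf j' = symCell t e1 e2 s (cellOf j) := by
  unfold symIdx at h
  split_ifs at h with hc
  obtain ⟨h1, h2, h3⟩ := hc
  have hj : 16 * (symCell t e1 e2 s (cellOf j)).2.toNat +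
      (symCell t e1 e2 s (cellOf j)).1.toNat = j' := Option.some.inj h
  rw [← hj]
  generalize symCell t e1 e2 s (cellOf j) = c at h1 h2 h3
  have hx : (c.1.toNat : ℤ) = c.1 := Int.toNat_of_nonneg h1
  have hy : (c.2.toNat : ℤ) = c.2 := Int.toNat_of_nonneg h3
  have hlt : c.1.toNat < 16 := by omega
  unfold cellOf
  have e1' : (16 * c.2.toNat + c.1.toNat) % 16 = c.1.toNat := by omega
  have e2' : (16 * c.2.toNat + c.1.toNat) / 16 = c.2.toNat := by omega
  rw [e1', e2', hx, hy]

/-- Every bit `j < k` of `z` is mapped to a bit of `z'`. -/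
def symCheckAux (t : Cell) (e1 e2 : ℤ) (s : Bool) (z z' : ℕ) : ℕ → Bool
  | 0 => true
  | k + 1 =>
    (if z.testBit k then
      (match symIdx t e1 e2 s k with
        | some j' => z'.testBit j'
        | none => false)
      else true) && symCheckAux t e1 e2 s z z' k

theorem symCheckAux_spec {t : Cell} {e1 e2 : ℤ} {s : Bool} {z z' : ℕ} :
    ∀ {K : ℕ}, symCheckAux t e1 e2 s z z' K = true → ∀ j : ℕ, j < K → z.testBit j = true →
      symCell t e1 e2 s (cellOf j) ∈ cells z' := by
  intro K
  induction K with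
  | zero => intro _ j hj; exact absurd hj (Nat.not_lt_zero j)
  | succ K ih =>
    intro h j hj hbit
    rw [symCheckAux, Bool.and_eq_true] at h
    rcases Nat.lt_succ_iff_lt_or_eq.mp hj with hj | hj
    · exact ih h.2 j hj hbit
    · subst hj
      have h1 := h.1
      rw [if_pos hbit] at h1
      cases hs : symIdx t e1 e2 s j with
      | none => rw [hs] at h1; exact absurd h1 (by simp)
      | some j' =>
        rw [hs] at h1
        rw [← cellOf_of_symIdx hs]
        exact cellOf_mem_cells.mpr h1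

/-- The Boolean side condition of a symmetry node. -/
def symCheck (t : Cell) (e1 e2 : ℤ) (s : Bool) (K z n z' n' : ℕ) : Bool :=
  (decide (e1 = 1) || decide (e1 = -1)) && (decide (e2 = 1) || decide (e2 = -1)) &&
    decide (z < 2 ^ K) && decide (n < 2 ^ K) && symCheckAux t e1 e2 s z z' K &&
    symCheckAux t e1 e2 s n n' K

theorem map_cells_subset {t : Cell} {e1 e2 : ℤ} {s : Bool} {K z z' : ℕ}
    (he1 : e1 = 1 ∨ e1 = -1) (he2 : e2 = 1 ∨ e2 = -1) (hz : z < 2 ^ K)
    (h : symCheckAux t e1 e2 s z z' K = true) :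
    (cells z).map (symEquiv t e1 e2 s he1 he2).toEmbedding ⊆ cells z' := by
  intro c hc
  rw [Finset.mem_map] at hc
  obtain ⟨c0, hc0, rfl⟩ := hc
  rw [mem_cells] at hc0
  obtain ⟨j, hj, rfl⟩ := hc0
  have hjK : j < K := by
    by_contra hcon
    have h1 : 2 ^ K ≤ 2 ^ j := Nat.pow_le_pow_right (by norm_num) (not_lt.mp hcon)
    have h2 : z.testBit j = false := Nat.testBit_lt_two_pow (lt_of_lt_of_le hz h1)
    rw [h2] at hj
    exact absurd hj (by simp)
  exact symCheckAux_spec h j hjK hj

/-- A symmetric image of a node is a node. -/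
theorem nodeM_sym (t : Cell) (e1 e2 : ℤ) (s : Bool) (K : ℕ) {z n d z' n' : ℕ}
    (h : NodeM z n d) (hchk : symCheck t e1 e2 s K z n z' n' = true) : NodeM z' n' d := by
  unfold symCheck at hchk
  simp only [Bool.and_eq_true, Bool.or_eq_true, decide_eq_true_eq] at hchk
  obtain ⟨⟨⟨⟨⟨he1, he2⟩, hz⟩, hn⟩, hcz⟩, hcn⟩ := hchk
  unfold NodeM at h ⊢
  exact (NodeOK.map (isSym_symEquiv t e1 e2 s he1 he2) h).weaken
    (map_cells_subset he1 he2 hz hcz) (map_cells_subset he1 he2 hn hcn) le_rfl

end Crest.Agent.SnakyLib
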