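/-!
# Memoised certificate checker for the weak Snaky game: definitions

The checker is written for evaluation by the Lean kernel (`decide +kernel`):

* all data are natural numbers and all arithmetic is done by the kernel's GMP-accelerated
  primitives (`Nat.lor`, `Nat.shiftRight`, ...) applied to raw literals;
* the value of a certificate node is one number (layout below) and joining the children of a
  move is a single bitwise OR;
* `res tab F a` (the value of the node with address `a`) is defined by recursion on the fuel `F`
  and is only ever called on canonical literal arguments, so the kernel's `whnf` cache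
  evaluates every node once.

Value layout (a natural number `v`):
* bits `0 .. 255`: zone `Z` (cell `(x, y)` is bit `x + 16 * y`);
* bits `256 .. 512`: answered replies `A` (bit `256 + i`: the Breaker reply at cell `i` is
  answered, bit `512`: all replies outside the `16 × 16` window are answered);
* bits `513 .. 768`: needed Maker stones `N`;
* bits `769 ..`: the depth `d` in unary (`2 ^ d - 1`).
The value `0` carries no information (it is what failed checks return).

Nothing in this file is a proof; soundness is in `MemoSound.lean`.
-/

set_option autoImplicit false

namespace Crest.Agent.SnakyLib.Memo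

/-- Table of the 8 placements: entry `o` (80 bits) is `mask + width <<< 72`. -/
def bases : Nat :=
  nat_lit 0x2020002000200030001020100030002000200020201000100010003000202020003000100010001050000000000001e00030500000000000003001e050000000000000f00180500000000000018000f

/-- Value of a WIN leaf with payload `p = o + 8 * t`: placement `o` translated by the cell with
index `t`. -/
def wval (p : Nat) : Nat :=
  Nat.mul
    (Nat.mul
      (Nat.add
        (Nat.shiftLeft (Nat.sub (Nat.pow (nat_lit 2) (nat_lit 257)) (nat_lit 1)) (nat_lit 256))
        (Nat.shiftLeft
          (Nat.shiftLeft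
            (Nat.mod
              (Nat.shiftRight bases (Nat.mul (nat_lit 80) (Nat.land p (nat_lit 7))))
              (Nat.pow (nat_lit 2) (nat_lit 72)))
            (Nat.land (Nat.shiftRight p (nat_lit 3)) (nat_lit 255)))
          (nat_lit 513)))
      -- the placement does not wrap around the right edge of the window
      (Nat.sub (nat_lit 1)
        (Nat.div
          (Nat.add
            (Nat.mod (Nat.land (Nat.shiftRight p (nat_lit 3)) (nat_lit 255)) (nat_lit 16))
            (Nat.land
              (Nat.shiftRight bases
                (Nat.add (Nat.mul (nat_lit 80) (Nat.land p (nat_lit 7))) (nat_lit 72)))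
              (nat_lit 7)))
          (nat_lit 17))))
    -- the placement stays below bit 256
    (Nat.sub (nat_lit 1)
      (Nat.shiftRight
        (Nat.shiftLeft
          (Nat.mod
            (Nat.shiftRight bases (Nat.mul (nat_lit 80) (Nat.land p (nat_lit 7))))
            (Nat.pow (nat_lit 2) (nat_lit 72)))
          (Nat.land (Nat.shiftRight p (nat_lit 3)) (nat_lit 255)))
        (nat_lit 256)))

/-- Value of a MOVE node from the join `v` of its children and the move cell index `m`. -/
def mstep (v m : Nat) : Nat :=
  Nat.mul
    (Nat.mul
      (Nat.add
        (Nat.add
          (Nat.add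
            -- Z' = Z ∪ {m}
            (Nat.lor (Nat.mod v (Nat.pow (nat_lit 2) (nat_lit 256)))
              (Nat.shiftLeft (nat_lit 1) m))
            -- A' = complement of Z' (and everything outside the window)
            (Nat.shiftLeft
              (Nat.sub (Nat.sub (Nat.pow (nat_lit 2) (nat_lit 257)) (nat_lit 1))
                (Nat.lor (Nat.mod v (Nat.pow (nat_lit 2) (nat_lit 256)))
                  (Nat.shiftLeft (nat_lit 1) m)))
              (nat_lit 256)))
          -- N' = N \ {m}
          (Nat.shiftLeft
            (Nat.xor
              (Nat.mod (Nat.shiftRight v (nat_lit 513)) (Nat.pow (nat_lit 2) (nat_lit 256)))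
              (Nat.land
                (Nat.mod (Nat.shiftRight v (nat_lit 513)) (Nat.pow (nat_lit 2) (nat_lit 256)))
                (Nat.shiftLeft (nat_lit 1) m)))
            (nat_lit 513)))
        -- D' = 2 * D + 1
        (Nat.shiftLeft
          (Nat.succ (Nat.mul (nat_lit 2) (Nat.shiftRight v (nat_lit 769))))
          (nat_lit 769)))
      -- every reply is answered: A = 2 ^ 257 - 1
      (Nat.shiftRight
        (Nat.succ
          (Nat.mod (Nat.shiftRight v (nat_lit 256)) (Nat.pow (nat_lit 2) (nat_lit 257))))
        (nat_lit 257)))
    -- m ∉ Z
    (Nat.sub (nat_lit 1) (Nat.land (Nat.shiftRight v m) (nat_lit 1)))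

/-- Value of a child word `w`: bit 0 is the tag (0: node reference, 1: WIN leaf), the payload
is `w >>> 1`. Payloads are forced to literals before the call (canonical cache keys). -/
def cval (ih : Nat → Nat) (w : Nat) : Nat :=
  Nat.rec (motive := fun _ => Nat)
    (Nat.rec (motive := fun _ => Nat) (nat_lit 0) (fun n _ => ih (Nat.succ n))
      (Nat.shiftRight w (nat_lit 1)))
    (fun _ _ =>
      Nat.rec (motive := fun _ => Nat) (wval (nat_lit 0)) (fun n _ => wval (Nat.succ n))
        (Nat.shiftRight w (nat_lit 1)))
    (Nat.land w (nat_lit 1))

/-- `res tab F a`: value of the node whose record is `tab a`.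
Record: word 0 = header (`level` in bits 0-4, number of children `k` in bits 5-12, move cell in
bits 13-20), words `1 .. k` (32 bits each) = children. A node of level `l` is computed when the
fuel is `l` (larger fuel is passed down unchanged), its children are evaluated with fuel
`l - 1`. -/
def res (tab : Nat → Nat) (F : Nat) : Nat → Nat :=
  Nat.rec (motive := fun _ => Nat → Nat) (fun _ => nat_lit 0)
    (fun F ih a =>
      Nat.rec (motive := fun _ => Nat)
        (mstep
          (Nat.rec (motive := fun _ => Nat) (nat_lit 0)
            (fun j acc => Nat.lor acc
              (cval ih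
                (Nat.land
                  (Nat.shiftRight (tab a) (Nat.mul (nat_lit 32) (Nat.succ j)))
                  (nat_lit 0xFFFFFFFF))))
            (Nat.land (Nat.shiftRight (tab a) (nat_lit 5)) (nat_lit 255)))
          (Nat.land (Nat.shiftRight (tab a) (nat_lit 13)) (nat_lit 255)))
        (fun _ _ => ih a)
        (Nat.sub (Nat.succ F) (Nat.land (tab a) (nat_lit 31))))
    F

/-- The packed value of a node with zone mask `Z`, needs mask `N` and depth `d`. -/
def packNode (Z N d : Nat) : Nat :=
  Nat.add
    (Nat.add
      (Nat.add Z
        (Nat.shiftLeft (Nat.sub (Nat.sub (Nat.pow (nat_lit 2) (nat_lit 257)) (nat_lit 1)) Z)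
          (nat_lit 256)))
      (Nat.shiftLeft N (nat_lit 513)))
    (Nat.shiftLeft (Nat.sub (Nat.pow (nat_lit 2) d) (nat_lit 1)) (nat_lit 769))

/-- The final test: the node at address `a` has zone `Z`, needs `N` and depth `d`. -/
def check (tab : Nat → Nat) (F a Z N d : Nat) : Bool :=
  Nat.beq (res tab F a) (packNode Z N d) && Nat.ble (Nat.succ Z) (Nat.pow (nat_lit 2) (nat_lit 256))
    && Nat.ble (Nat.succ N) (Nat.pow (nat_lit 2) (nat_lit 256))

end Crest.Agent.SnakyLib.Memo
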