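import Crest.Agent.SnakyLib.Mask
import Crest.Agent.SnakyLib.MemoDefs

/-!
# Memoised certificate checker for the weak Snaky game: soundness

`nodeM_of_check : Memo.check tab F a Z N d = true → NodeM Z N d` for an arbitrary table `tab`.
-/

set_option autoImplicit false
set_option exponentiation.threshold 2000

namespace Crest.Agent.SnakyLib.Memo

open Crest.CombinatoricsR.PolyominoGame Crest.Agent.SnakyLib

/-! ### WIN leaves -/

/-- A placement given in normalised position (inside `[0, w) × [0, ∞)`, bits of `mask`) stays a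
placement after shifting the mask by `t`, as long as it does not wrap around the window. -/
theorem nodeM_shift (mask w : ℕ) (a : Cell) (e1 e2 : ℤ) (s : Bool)
    (he1 : e1 = 1 ∨ e1 = -1) (he2 : e2 = 1 ∨ e2 = -1)
    (hc : ∀ c ∈ placement a e1 e2 s, 0 ≤ c.1 ∧ c.1 < (w : ℤ) ∧ 0 ≤ c.2 ∧
      mask.testBit (c.1.toNat + 16 * c.2.toNat) = true)
    (t : ℕ) (ht : t % 16 + w ≤ 16) : NodeM 0 (mask <<< t) 0 := by
  unfold NodeM
  rw [cells_zero]
  apply nodeOK_win
  refine containsCopy_of_placement (a.1 + ((t % 16 : ℕ) : ℤ), a.2 + ((t / 16 : ℕ) : ℤ)) e1 e2 s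
    he1 he2 fun c hc' => ?_
  simp only [placement, List.mem_map] at hc'
  obtain ⟨p, hp, rfl⟩ := hc'
  have h0 := hc (if s then (a.1 + e1 * p.2, a.2 + e2 * p.1) else (a.1 + e1 * p.1, a.2 + e2 * p.2))
    (by simp only [placement, List.mem_map]; exact ⟨p, hp, rfl⟩)
  generalize hc0 : (if s then (a.1 + e1 * p.2, a.2 + e2 * p.1)
    else (a.1 + e1 * p.1, a.2 + e2 * p.2)) = c0 at h0
  obtain ⟨h1, h2, h3, h4⟩ := h0
  have hx : (c0.1.toNat : ℤ) = c0.1 := Int.toNat_of_nonneg h1
  have hy : (c0.2.toNat : ℤ) = c0.2 := Int.toNat_of_nonneg h3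
  have hxw : c0.1.toNat < w := by omega
  rw [Finset.mem_coe, mem_cells]
  refine ⟨t + (c0.1.toNat + 16 * c0.2.toNat), ?_, ?_⟩
  · rw [Nat.testBit_shiftLeft]
    simp [h4]
  · have e1' : (t + (c0.1.toNat + 16 * c0.2.toNat)) % 16 = t % 16 + c0.1.toNat := by omega
    have e2' : (t + (c0.1.toNat + 16 * c0.2.toNat)) / 16 = t / 16 + c0.2.toNat := by omega
    unfold cellOf
    rw [e1', e2']
    have hc1 : c0.1 = (if s then a.1 + e1 * p.2 else a.1 + e1 * p.1) := by
      rw [← hc0]; split <;> rfl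
    have hc2 : c0.2 = (if s then a.2 + e2 * p.1 else a.2 + e2 * p.2) := by
      rw [← hc0]; split <;> rfl
    push_cast
    rw [hx, hy, hc1, hc2]
    cases s <;> simp <;> constructor <;> ring

/-- The 8 entries of `bases`. -/
theorem wmask_sound (o t : ℕ) (ho : o < 8)
    (ht : t % 16 + (bases >>> (80 * o + 72) &&& 7) ≤ 16) :
    NodeM 0 (((bases >>> (80 * o)) % 2 ^ 72) <<< t) 0 := by
  interval_cases o
  · have e1 : (bases >>> (80 * 0)) % 2 ^ 72 = 0x18000f := by decide +kernel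
    have e2 : (bases >>> (80 * 0 + 72) &&& 7) = 5 := by decide +kernel
    rw [e1]; rw [e2] at ht
    exact nodeM_shift _ 5 (0, 0) 1 1 false (by decide) (by decide) (by decide +kernel) t ht
  · have e1 : (bases >>> (80 * 1)) % 2 ^ 72 = 0xf0018 := by decide +kernel
    have e2 : (bases >>> (80 * 1 + 72) &&& 7) = 5 := by decide +kernel
    rw [e1]; rw [e2] at ht
    exact nodeM_shift _ 5 (0, 1) 1 (-1) false (by decide) (by decide) (by decide +kernel) t ht
  · have e1 : (bases >>> (80 * 2)) % 2 ^ 72 = 0x3001e := by decide +kernel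
    have e2 : (bases >>> (80 * 2 + 72) &&& 7) = 5 := by decide +kernel
    rw [e1]; rw [e2] at ht
    exact nodeM_shift _ 5 (4, 0) (-1) 1 false (by decide) (by decide) (by decide +kernel) t ht
  · have e1 : (bases >>> (80 * 3)) % 2 ^ 72 = 0x1e0003 := by decide +kernel
    have e2 : (bases >>> (80 * 3 + 72) &&& 7) = 5 := by decide +kernel
    rw [e1]; rw [e2] at ht
    exact nodeM_shift _ 5 (4, 1) (-1) (-1) false (by decide) (by decide) (by decide +kernel) t ht
  · have e1 : (bases >>> (80 * 4)) % 2 ^ 72 = 0x20003000100010001 := by decide +kernel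
    have e2 : (bases >>> (80 * 4 + 72) &&& 7) = 2 := by decide +kernel
    rw [e1]; rw [e2] at ht
    exact nodeM_shift _ 2 (0, 0) 1 1 true (by decide) (by decide) (by decide +kernel) t ht
  · have e1 : (bases >>> (80 * 5)) % 2 ^ 72 = 0x10001000100030002 := by decide +kernel
    have e2 : (bases >>> (80 * 5 + 72) &&& 7) = 2 := by decide +kernel
    rw [e1]; rw [e2] at ht
    exact nodeM_shift _ 2 (0, 4) 1 (-1) true (by decide) (by decide) (by decide +kernel) t ht
  · have e1 : (bases >>> (80 * 6)) % 2 ^ 72 = 0x10003000200020002 := by decide +kernel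
    have e2 : (bases >>> (80 * 6 + 72) &&& 7) = 2 := by decide +kernel
    rw [e1]; rw [e2] at ht
    exact nodeM_shift _ 2 (1, 0) (-1) 1 true (by decide) (by decide) (by decide +kernel) t ht
  · have e1 : (bases >>> (80 * 7)) % 2 ^ 72 = 0x20002000200030001 := by decide +kernel
    have e2 : (bases >>> (80 * 7 + 72) &&& 7) = 2 := by decide +kernel
    rw [e1]; rw [e2] at ht
    exact nodeM_shift _ 2 (1, 4) (-1) (-1) true (by decide) (by decide) (by decide +kernel) t ht

/-! ### Fields of a value -/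

/-- The zone field. -/
def Zf (v : ℕ) : ℕ := v % 2 ^ 256
/-- The answered-replies field. -/
def Af (v : ℕ) : ℕ := v >>> 256 % 2 ^ 257
/-- The needs field. -/
def Nf (v : ℕ) : ℕ := v >>> 256 >>> 257 % 2 ^ 256
/-- The (unary) depth field. -/
def Df (v : ℕ) : ℕ := v >>> 256 >>> 257 >>> 256

/-- A packed value. -/
def pack (Z A N D : ℕ) : ℕ := Z + 2 ^ 256 * (A + 2 ^ 257 * (N + 2 ^ 256 * D))

theorem Zf_pack {Z A N D : ℕ} (hZ : Z < 2 ^ 256) : Zf (pack Z A N D) = Z := by
  unfold Zf pack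
  rw [Nat.add_mul_mod_self_left, Nat.mod_eq_of_lt hZ]

theorem shr_pack {Z A N D : ℕ} (hZ : Z < 2 ^ 256) :
    pack Z A N D >>> 256 = A + 2 ^ 257 * (N + 2 ^ 256 * D) := by
  unfold pack
  rw [Nat.shiftRight_eq_div_pow, Nat.add_mul_div_left _ _ (Nat.two_pow_pos 256),
    Nat.div_eq_of_lt hZ, Nat.zero_add]

theorem Af_pack {Z A N D : ℕ} (hZ : Z < 2 ^ 256) (hA : A < 2 ^ 257) :
    Af (pack Z A N D) = A := by
  unfold Af
  rw [shr_pack hZ, Nat.add_mul_mod_self_left, Nat.mod_eq_of_lt hA]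

theorem shr_pack2 {Z A N D : ℕ} (hZ : Z < 2 ^ 256) (hA : A < 2 ^ 257) :
    pack Z A N D >>> 256 >>> 257 = N + 2 ^ 256 * D := by
  rw [shr_pack hZ, Nat.shiftRight_eq_div_pow, Nat.add_mul_div_left _ _ (Nat.two_pow_pos 257),
    Nat.div_eq_of_lt hA, Nat.zero_add]

theorem Nf_pack {Z A N D : ℕ} (hZ : Z < 2 ^ 256) (hA : A < 2 ^ 257) (hN : N < 2 ^ 256) :
    Nf (pack Z A N D) = N := by
  unfold Nf
  rw [shr_pack2 hZ hA, Nat.add_mul_mod_self_left, Nat.mod_eq_of_lt hN]

theorem Df_pack {Z A N D : ℕ} (hZ : Z < 2 ^ 256) (hA : A < 2 ^ 257) (hN : N < 2 ^ 256) :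
    Df (pack Z A N D) = D := by
  unfold Df
  rw [shr_pack2 hZ hA, Nat.shiftRight_eq_div_pow, Nat.add_mul_div_left _ _ (Nat.two_pow_pos 256),
    Nat.div_eq_of_lt hN, Nat.zero_add]

theorem Zf_lor (a b : ℕ) : Zf (a ||| b) = Zf a ||| Zf b := by
  unfold Zf
  rw [Nat.or_mod_two_pow]

theorem Af_lor (a b : ℕ) : Af (a ||| b) = Af a ||| Af b := by
  unfold Af
  rw [Nat.shiftRight_or_distrib, Nat.or_mod_two_pow]

theorem Nf_lor (a b : ℕ) : Nf (a ||| b) = Nf a ||| Nf b := by
  unfold Nf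
  rw [Nat.shiftRight_or_distrib, Nat.shiftRight_or_distrib, Nat.or_mod_two_pow]

theorem Df_lor (a b : ℕ) : Df (a ||| b) = Df a ||| Df b := by
  unfold Df
  rw [Nat.shiftRight_or_distrib, Nat.shiftRight_or_distrib, Nat.shiftRight_or_distrib]

/-! ### Semantics -/

/-- The Breaker reply `c` is answered according to the mask `A` (bit `i < 256`: the cell with
index `i`; bit `256`: every cell outside the window). -/
def Ans (A : ℕ) (c : Cell) : Prop :=
  (∃ i, i < 256 ∧ cellOf i = c ∧ A.testBit i = true) ∨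
    ((∀ i, i < 256 → cellOf i ≠ c) ∧ A.testBit 256 = true)

/-- Meaning of a value, read as a set of plans: after Maker's move, every answered Breaker reply
leads to a position won within the depth bound. -/
def Sem (v : ℕ) : Prop :=
  ∀ d, Df v < 2 ^ d → ∀ M B : Finset Cell, Disjoint M B → cells (Nf v) ⊆ M →
    Disjoint (cells (Zf v)) (M ∪ B) → ∀ c, c ∉ M → c ∉ B → Ans (Af v) c →
      MWin M (insert c B) d

/-- Meaning of the value of a node. -/
def NodeVal (v : ℕ) : Prop :=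
  v = 0 ∨ ∃ Z N D, Z < 2 ^ 256 ∧ N < 2 ^ 256 ∧ v = pack Z (2 ^ 257 - 1 - Z) N D ∧
    ∀ d, D < 2 ^ d → NodeM Z N d

theorem sem_zero : Sem 0 := by
  intro d _ M B _ _ _ c _ _ hA
  exfalso
  have h0 : Af 0 = 0 := by unfold Af; simp
  rw [h0] at hA
  rcases hA with ⟨i, _, _, h⟩ | ⟨_, h⟩ <;> simp at h

theorem sem_lor {a b : ℕ} (ha : Sem a) (hb : Sem b) : Sem (a ||| b) := by
  intro d hd M B hMB hN hZ c hcM hcB hA
  rw [Df_lor] at hd
  rw [Nf_lor, cells_lor] at hN
  rw [Zf_lor, cells_lor, Finset.disjoint_union_left] at hZ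
  have hda : Df a < 2 ^ d := lt_of_le_of_lt Nat.left_le_or hd
  have hdb : Df b < 2 ^ d := lt_of_le_of_lt Nat.right_le_or hd
  have hA' : Ans (Af a) c ∨ Ans (Af b) c := by
    rw [Af_lor] at hA
    rcases hA with ⟨i, hi, hic, hbit⟩ | ⟨hout, hbit⟩
    · rw [Nat.testBit_lor, Bool.or_eq_true] at hbit
      rcases hbit with h | h
      · exact Or.inl (Or.inl ⟨i, hi, hic, h⟩)
      · exact Or.inr (Or.inl ⟨i, hi, hic, h⟩)
    · rw [Nat.testBit_lor, Bool.or_eq_true] at hbit
      rcases hbit with h | h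
      · exact Or.inl (Or.inr ⟨hout, h⟩)
      · exact Or.inr (Or.inr ⟨hout, h⟩)
  rcases hA' with h | h
  · exact ha d hda M B hMB (Finset.union_subset_left hN) hZ.1 c hcM hcB h
  · exact hb d hdb M B hMB (Finset.union_subset_right hN) hZ.2 c hcM hcB h

theorem compl_lt {Z : ℕ} : 2 ^ 257 - 1 - Z < 2 ^ 257 :=
  lt_of_le_of_lt (Nat.sub_le _ _) (Nat.sub_lt (Nat.two_pow_pos 257) Nat.one_pos)

theorem testBit_false_of_ge {Z i : ℕ} (hZ : Z < 2 ^ 256) (hi : 256 ≤ i) : Z.testBit i = false :=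
  Nat.testBit_lt_two_pow (lt_of_lt_of_le hZ (Nat.pow_le_pow_right (by norm_num) hi))

theorem sem_pack_node {Z N D : ℕ} (hZ : Z < 2 ^ 256) (hN : N < 2 ^ 256)
    (h : ∀ d, D < 2 ^ d → NodeM Z N d) : Sem (pack Z (2 ^ 257 - 1 - Z) N D) := by
  intro d hd M B hMB hNM hZM c hcM hcB hAns
  rw [Df_pack hZ compl_lt hN] at hd
  rw [Nf_pack hZ compl_lt hN] at hNM
  rw [Zf_pack hZ] at hZM
  rw [Af_pack hZ compl_lt] at hAns
  have hcZ : c ∉ cells Z := by
    rcases hAns with ⟨i, hi, rfl, hbit⟩ | ⟨hout, _⟩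
    · apply cellOf_notMem_cells
      have e : 2 ^ 257 - 1 - Z = 2 ^ 257 - (Z + 1) := by
        rw [Nat.sub_sub, Nat.add_comm 1 Z]
      rw [e, Nat.testBit_two_pow_sub_succ (lt_trans hZ (by norm_num))] at hbit
      simp only [Bool.and_eq_true, decide_eq_true_eq, Bool.not_eq_true'] at hbit
      exact hbit.2
    · intro hc
      rw [mem_cells] at hc
      obtain ⟨i, hi, hic⟩ := hc
      refine hout i ?_ hic
      by_contra hcon
      rw [testBit_false_of_ge hZ (not_lt.mp hcon)] at hi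
      exact absurd hi (by simp)
  have h1 : Disjoint M (insert c B) := by
    rw [Finset.disjoint_insert_right]; exact ⟨hcM, hMB⟩
  have h2 : Disjoint (cells Z) (M ∪ insert c B) := by
    rw [Finset.disjoint_union_right] at hZM ⊢
    exact ⟨hZM.1, by rw [Finset.disjoint_insert_right]; exact ⟨hcZ, hZM.2⟩⟩
  exact h d hd M (insert c B) h1 hNM h2

theorem sem_of_nodeVal {v : ℕ} (h : NodeVal v) : Sem v := by
  rcases h with rfl | ⟨Z, N, D, hZ, hN, rfl, h⟩
  · exact sem_zero
  · exact sem_pack_node hZ hN h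

/-! ### WIN leaves as values -/

theorem wval_eq (p : ℕ) : wval p =
    ((2 ^ 257 - 1) <<< 256 +
        (((bases >>> (80 * (p &&& 7))) % 2 ^ 72) <<< (p >>> 3 &&& 255)) <<< 513)
      * (1 - ((p >>> 3 &&& 255) % 16 + (bases >>> (80 * (p &&& 7) + 72) &&& 7)) / 17)
      * (1 - ((bases >>> (80 * (p &&& 7))) % 2 ^ 72) <<< (p >>> 3 &&& 255) >>> 256) := rfl

theorem sem_wval (p : ℕ) : Sem (wval p) := by
  rw [wval_eq]
  have ho8 : p &&& 7 < 8 := Nat.lt_succ_of_le Nat.and_le_right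
  generalize p &&& 7 = o at ho8 ⊢
  generalize p >>> 3 &&& 255 = t
  by_cases h1 : t % 16 + (bases >>> (80 * o + 72) &&& 7) ≤ 16
  swap
  · have e : 1 - (t % 16 + (bases >>> (80 * o + 72) &&& 7)) / 17 = 0 := by omega
    rw [e, Nat.mul_zero, Nat.zero_mul]
    exact sem_zero
  by_cases h2 : ((bases >>> (80 * o)) % 2 ^ 72) <<< t < 2 ^ 256
  swap
  · have e : 1 - ((bases >>> (80 * o)) % 2 ^ 72) <<< t >>> 256 = 0 := by
      have : 1 ≤ ((bases >>> (80 * o)) % 2 ^ 72) <<< t >>> 256 := by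
        rw [Nat.shiftRight_eq_div_pow]
        exact Nat.div_pos (not_lt.mp h2) (Nat.two_pow_pos 256)
      omega
    rw [e, Nat.mul_zero]
    exact sem_zero
  have e1 : 1 - (t % 16 + (bases >>> (80 * o + 72) &&& 7)) / 17 = 1 := by omega
  have e2 : 1 - ((bases >>> (80 * o)) % 2 ^ 72) <<< t >>> 256 = 1 := by
    rw [Nat.shiftRight_eq_div_pow, Nat.div_eq_of_lt h2]
  rw [e1, e2, Nat.mul_one, Nat.mul_one]
  have hnode := wmask_sound o t ho8 h1
  generalize ((bases >>> (80 * o)) % 2 ^ 72) <<< t = n at h2 hnode ⊢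
  have hv : (2 ^ 257 - 1) <<< 256 + n <<< 513 = pack 0 (2 ^ 257 - 1) n 0 := by
    unfold pack
    simp only [Nat.shiftLeft_eq]
    ring
  rw [hv]
  intro d _ M B hMB hNM _ c hcM _ _
  rw [Nf_pack (Nat.two_pow_pos 256) (Nat.sub_lt (Nat.two_pow_pos 257) Nat.one_pos) h2] at hNM
  have h1' : Disjoint M (insert c B) := by
    rw [Finset.disjoint_insert_right]; exact ⟨hcM, hMB⟩
  have := hnode M (insert c B) h1' hNM (by rw [cells_zero]; exact Finset.disjoint_empty_left _)
  exact this.mono_budget (Nat.zero_le d)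

/-! ### MOVE nodes -/

theorem mstep_eq (v m : ℕ) : mstep v m =
    ((v % 2 ^ 256 ||| 1 <<< m) + (2 ^ 257 - 1 - (v % 2 ^ 256 ||| 1 <<< m)) <<< 256
        + ((v >>> 513 % 2 ^ 256) ^^^ (v >>> 513 % 2 ^ 256 &&& 1 <<< m)) <<< 513
        + (2 * (v >>> 769) + 1) <<< 769)
      * ((v >>> 256 % 2 ^ 257 + 1) >>> 257) * (1 - (v >>> m &&& 1)) := rfl

theorem shr_and_one (v m : ℕ) : v >>> m &&& 1 = if v.testBit m = true then 1 else 0 := by
  rw [Nat.testBit_eq_decide_div_mod_eq, Nat.and_one_is_mod, Nat.shiftRight_eq_div_pow]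
  split_ifs with h
  · simpa using h
  · have := Nat.mod_two_eq_zero_or_one (v / 2 ^ m)
    simp only [decide_eq_true_eq] at h
    omega

theorem nodeVal_mstep {v m : ℕ} (hv : Sem v) (hm : m < 256) : NodeVal (mstep v m) := by
  rw [mstep_eq]
  have hZf : v % 2 ^ 256 = Zf v := rfl
  have hAf : v >>> 256 % 2 ^ 257 = Af v := rfl
  have hNf : v >>> 513 % 2 ^ 256 = Nf v := by
    unfold Nf; rw [← Nat.shiftRight_add]
  have hDf : v >>> 769 = Df v := by
    unfold Df; rw [← Nat.shiftRight_add, ← Nat.shiftRight_add]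
  rw [hZf, hAf, hNf, hDf, shr_and_one]
  have hA : Af v < 2 ^ 257 := Nat.mod_lt _ (Nat.two_pow_pos 257)
  have hZ : Zf v < 2 ^ 256 := Nat.mod_lt _ (Nat.two_pow_pos 256)
  have hN : Nf v < 2 ^ 256 := Nat.mod_lt _ (Nat.two_pow_pos 256)
  by_cases h1 : Af v = 2 ^ 257 - 1
  swap
  · left
    have e : (Af v + 1) >>> 257 = 0 := by
      rw [Nat.shiftRight_eq_div_pow]
      apply Nat.div_eq_of_lt
      omega
    rw [e, Nat.mul_zero, Nat.zero_mul]
  by_cases h2 : v.testBit m = true
  · left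
    rw [if_pos h2, Nat.sub_self, Nat.mul_zero]
  right
  have e1 : (Af v + 1) >>> 257 = 1 := by
    rw [h1, Nat.sub_add_cancel (Nat.two_pow_pos 257), Nat.shiftRight_eq_div_pow,
      Nat.div_self (Nat.two_pow_pos 257)]
  rw [if_neg h2, e1, Nat.mul_one, Nat.mul_one]
  have hbit : (1 : ℕ) <<< m < 2 ^ 256 := by
    rw [Nat.one_shiftLeft]
    exact Nat.pow_lt_pow_right (by norm_num) hm
  have hZ' : Zf v ||| 1 <<< m < 2 ^ 256 := Nat.or_lt_two_pow hZ hbit
  have hN' : Nf v ^^^ (Nf v &&& 1 <<< m) < 2 ^ 256 :=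
    Nat.xor_lt_two_pow hN (lt_of_le_of_lt Nat.and_le_left hN)
  refine ⟨Zf v ||| 1 <<< m, Nf v ^^^ (Nf v &&& 1 <<< m), 2 * Df v + 1, hZ', hN', ?_, ?_⟩
  · generalize Zf v ||| 1 <<< m = z
    generalize Nf v ^^^ (Nf v &&& 1 <<< m) = n
    unfold pack
    simp only [Nat.shiftLeft_eq]
    ring
  · intro d hd
    have h2' : v.testBit m = false := by simpa using h2
    cases d with
    | zero => omega
    | succ d =>
      have hD : Df v < 2 ^ d := by
        rw [pow_succ] at hd; omega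
      unfold NodeM NodeOK
      intro M B hMB hNM hZM
      rw [cells_lor, cells_bit, Finset.disjoint_union_left, Finset.disjoint_singleton_left,
        Finset.mem_union, not_or] at hZM
      obtain ⟨hZ0, hmM, hmB⟩ := hZM
      refine MWin.move M B d (cellOf m) hmM hmB fun c hc1 hc2 => ?_
      refine hv d hD (insert (cellOf m) M) B ?_ ?_ ?_ c hc1 hc2 ?_
      · exact Finset.disjoint_insert_left.mpr ⟨hmB, hMB⟩
      · intro x hx
        rw [mem_cells] at hx
        obtain ⟨i, hi, rfl⟩ := hx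
        by_cases him : i = m
        · subst him; exact Finset.mem_insert_self _ _
        · apply Finset.mem_insert_of_mem
          apply hNM
          rw [cellOf_mem_cells, Nat.testBit_xor, Nat.testBit_and, Nat.one_shiftLeft,
            Nat.testBit_two_pow, hi]
          have : decide (m = i) = false := by simpa using fun h : m = i => him h.symm
          rw [this]
          rfl
      · rw [Finset.disjoint_union_right, Finset.disjoint_insert_right]
        rw [Finset.disjoint_union_right] at hZ0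
        refine ⟨⟨?_, hZ0.1⟩, hZ0.2⟩
        apply cellOf_notMem_cells
        unfold Zf
        rw [Nat.testBit_mod_two_pow, h2', Bool.and_false]
      · rw [h1]
        by_cases hex : ∃ i, i < 256 ∧ cellOf i = c
        · obtain ⟨i, hi, hic⟩ := hex
          refine Or.inl ⟨i, hi, hic, ?_⟩
          rw [Nat.testBit_two_pow_sub_one]
          simpa using lt_trans hi (by norm_num)
        · refine Or.inr ⟨fun i hi hic => hex ⟨i, hi, hic⟩, ?_⟩
          rw [Nat.testBit_two_pow_sub_one]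
          simp

/-! ### The recursion -/

theorem sem_cval (ih : ℕ → ℕ) (h : ∀ a, NodeVal (ih a)) (w : ℕ) : Sem (cval ih w) := by
  unfold cval
  generalize Nat.land w 1 = t
  generalize Nat.shiftRight w 1 = p
  cases t with
  | zero =>
    cases p with
    | zero => exact sem_zero
    | succ n => exact sem_of_nodeVal (h _)
  | succ t =>
    cases p with
    | zero => exact sem_wval 0
    | succ n => exact sem_wval _

theorem sem_fold (f : ℕ → ℕ) (hf : ∀ j, Sem (f j)) (k : ℕ) :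
    Sem (Nat.rec (motive := fun _ => ℕ) 0 (fun j acc => Nat.lor acc (f j)) k) := by
  induction k with
  | zero => exact sem_zero
  | succ k ih => exact sem_lor ih (hf k)

theorem rec_cases {P : ℕ → Prop} (x y t : ℕ) (hx : P x) (hy : P y) :
    P (Nat.rec (motive := fun _ => ℕ) x (fun _ _ => y) t) := by
  cases t <;> assumption

theorem nodeVal_res (tab : ℕ → ℕ) : ∀ F a : ℕ, NodeVal (res tab F a)
  | 0, _ => Or.inl rfl
  | F + 1, a => by
    have ih := nodeVal_res tab F
    refine rec_cases (P := NodeVal) _ _ _ (nodeVal_mstep (sem_fold _ (fun j => sem_cval _ ih _) _) ?_)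
      (ih a)
    exact Nat.lt_succ_of_le Nat.and_le_right

/-! ### The final test -/

theorem packNode_eq (Z N d : ℕ) :
    packNode Z N d = pack Z (2 ^ 257 - 1 - Z) N (2 ^ d - 1) := by
  have e : packNode Z N d =
      Z + (2 ^ 257 - 1 - Z) <<< 256 + N <<< 513 + (2 ^ d - 1) <<< 769 := rfl
  rw [e]
  unfold pack
  simp only [Nat.shiftLeft_eq]
  ring

/-- Soundness of the memoised checker. -/
theorem nodeM_of_check (tab : ℕ → ℕ) (F a Z N d : ℕ) (h : check tab F a Z N d = true) :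
    NodeM Z N d := by
  unfold check at h
  rw [Bool.and_eq_true, Bool.and_eq_true] at h
  obtain ⟨⟨h1, h2⟩, h3⟩ := h
  have hZ : Z < 2 ^ 256 := Nat.le_of_ble_eq_true h2
  have hN : N < 2 ^ 256 := Nat.le_of_ble_eq_true h3
  have hv := nodeVal_res tab F a
  rw [Nat.eq_of_beq_eq_true h1, packNode_eq] at hv
  rcases hv with h0 | ⟨Z', N', D', hZ', hN', heq, hnode⟩
  · exfalso
    have := congrArg Af h0
    rw [Af_pack hZ compl_lt] at this
    have h00 : Af 0 = 0 := by unfold Af; simp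
    rw [h00] at this
    have : 2 ^ 256 ≤ 2 ^ 257 - 1 - Z := by
      have e : (2 : ℕ) ^ 257 = 2 ^ 256 + 2 ^ 256 := by rw [pow_succ]; ring
      omega
    have := Nat.two_pow_pos 256
    omega
  · have e1 : Z = Z' := by
      have := congrArg Zf heq
      rwa [Zf_pack hZ, Zf_pack hZ'] at this
    subst e1
    have e2 : N = N' := by
      have := congrArg Nf heq
      rwa [Nf_pack hZ compl_lt hN, Nf_pack hZ compl_lt hN'] at this
    subst e2
    have e3 : 2 ^ d - 1 = D' := by
      have := congrArg Df heq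
      rwa [Df_pack hZ compl_lt hN, Df_pack hZ compl_lt hN] at this
    subst e3
    exact hnode d (Nat.sub_lt (Nat.two_pow_pos d) Nat.one_pos)

end Crest.Agent.SnakyLib.Memo
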